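import Vale.Agent.P273.H630.VertIn

/-!
# P273, ASY0 (T3e): the bounds (c1), (c2), (c6) of the coefficients `a = af0 (eps0 y α) (cc ξ y α)`
-/

noncomputable section

namespace Vale.Agent.P273.H630

open Finset Complex Metric Set
open Vale.Agent.P273.H598 (rz rz_sq rz_ne_zero)
open Vale.Agent.P273.H517 (Sep Sm SmS cm kp MM ps ph ph0 hn)
open Vale.Agent.P273.H95 (ctr IsCl)
open Vale.Agent.P273.H562 (rootsL bt xe)
open Vale.Agent.P273.H803 (BaseOk)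

section general

variable {e : Fin 3 → ℂ} (he : Sep e) (ell : Fin 3 → Fin 3 → ℂ)

theorem norm_rz_le {a z : ℂ} (hz : z ≠ 0) : ‖rz a z‖ ^ 2 ≤ ‖z‖ ^ 2 + ‖a‖ := by
  rw [← norm_pow, rz_sq hz, ← norm_pow z]
  exact norm_sub_le _ _

/-- `(a 0 + a 1 t)` from the factor `G` -/
theorem exists_lin_le : ∃ C : ℝ, 0 ≤ C ∧ ∀ (ε : E3), ‖ε‖ < (cmIn he ell).rad → ∀ (k : Fin 3)
    (t : ℂ), ‖t - e k‖ ≤ 3 / 2 → ∀ c : E3,
    ‖(cmIn he ell).af ε c 0 + (cmIn he ell).af ε c 1 * t‖ ≤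
      C * ‖Gf he ell k (ε, t - e k) c‖ := by
  have hS : ∀ l, ‖e l‖ ≤ ∑ l, ‖e l‖ := fun l =>
    single_le_sum (f := fun l => ‖e l‖) (fun _ _ => norm_nonneg _) (mem_univ l)
  set S : ℝ := ∑ l, ‖e l‖ with hSdef
  have hS0 : 0 ≤ S := sum_nonneg fun _ _ => norm_nonneg _
  refine ⟨∏ _l ∈ univ.erase (0 : Fin 3), (3 + 2 * S), by positivity, fun ε hε k t ht c => ?_⟩
  have hs := sm_of_rad he ell hε.le
  -- the other centres are far
  have hfar : ∀ l, l ≠ k → 1 / 2 ≤ ‖t - e l‖ := fun l hl =>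
    H517.far_of he (Ne.symm hl) ht
  have hrz : ∀ l, l ≠ k → rz (ε l) (t - e l) ≠ 0 := fun l hl => by
    refine rz_ne_zero ?_
    exact H517.lt_sq_of (hs l) (by have := hfar l hl; linarith)
  have hps : ∀ l, l ≠ k → ‖rz (ε l) (t - e l)‖ ≤ 3 + 2 * S := fun l hl => by
    have h1 : t - e l ≠ 0 := by
      rw [← norm_pos_iff]
      have := hfar l hl
      linarith
    have h2 := norm_rz_le (a := ε l) h1
    have h3 : ‖t - e l‖ ≤ 3 / 2 + 2 * S := by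
      have : t - e l = (t - e k) + (e k - e l) := by ring
      rw [this]
      refine (norm_add_le _ _).trans ?_
      have := norm_sub_le (e k) (e l)
      have := hS k
      have := hS l
      linarith
    have h4 : ‖ε l‖ ≤ 1 := by
      have := (hs l).le
      norm_num at this
      linarith
    have h5 : ‖rz (ε l) (t - e l)‖ ^ 2 ≤ (3 + 2 * S) ^ 2 := by
      have h0 := norm_nonneg (t - e l)
      nlinarith
    exact le_of_sq_le_sq h5 (by positivity)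
  have e1 : Gf he ell k (ε, t - e k) c =
      ((cmIn he ell).af ε c 0 + (cmIn he ell).af ε c 1 * t) *
        ∏ l ∈ univ.erase k, ps e ε l t := by
    rw [Gf_apply, Fin.sum_univ_two]
    simp only [hn, Fin.val_zero, Fin.val_one, add_sub_cancel, pow_zero, pow_one]
    ring
  have e2 : (cmIn he ell).af ε c 0 + (cmIn he ell).af ε c 1 * t =
      Gf he ell k (ε, t - e k) c * ∏ l ∈ univ.erase k, rz (ε l) (t - e l) := by
    rw [e1, mul_assoc, ← prod_mul_distrib]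
    have : ∏ l ∈ univ.erase k, (ps e ε l t * rz (ε l) (t - e l)) = 1 := by
      refine prod_eq_one fun l hl => ?_
      unfold ps
      exact inv_mul_cancel₀ (hrz l (ne_of_mem_erase hl))
    rw [this, mul_one]
  rw [e2, norm_mul, norm_prod, mul_comm]
  refine mul_le_mul_of_nonneg_right ?_ (norm_nonneg _)
  calc ∏ l ∈ univ.erase k, ‖rz (ε l) (t - e l)‖ ≤ ∏ _l ∈ univ.erase k, (3 + 2 * S) :=
        prod_le_prod (fun _ _ => norm_nonneg _) fun l hl => hps l (ne_of_mem_erase hl)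
    _ = ∏ _l ∈ univ.erase (0 : Fin 3), (3 + 2 * S) := by
        rw [prod_const, prod_const, card_erase_of_mem (mem_univ _), card_erase_of_mem (mem_univ _)]

/-- **(c2), general form**: `|a 0 + a 1 t| ≤ C (|c k| + (|t - e k| + |ε k|) |c|)` -/
theorem exists_lin : ∃ C : ℝ, 0 ≤ C ∧ ∀ (ε : E3), ‖ε‖ < (cmIn he ell).rad → ∀ c : E3,
    (‖(cmIn he ell).af ε c 0‖ + ‖(cmIn he ell).af ε c 1‖ ≤ C * ‖c‖) ∧
    (∑ l, c l = 0 → ∀ (k : Fin 3) (t : ℂ), ‖t - e k‖ ≤ 3 / 2 →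
      ‖(cmIn he ell).af ε c 0 + (cmIn he ell).af ε c 1 * t‖ ≤
        C * (‖c k‖ + (‖t - e k‖ + ‖ε k‖) * ‖c‖)) := by
  obtain ⟨C, hC0, hC⟩ := exists_lin_le he ell
  obtain ⟨A, hA0, hA⟩ := exists_Gf_sub he ell
  have hb1 := (cmIn he ell).one_le_bd
  refine ⟨2 * (cmIn he ell).bd + C * (1 + A), by positivity, fun ε hε c => ⟨?_, fun hc k t ht => ?_⟩⟩
  · have ha : ‖(cmIn he ell).af ε c‖ ≤ (cmIn he ell).bd * ‖c‖ :=
      ((cmIn he ell).af ε).le_of_opNorm_le ((cmIn he ell).norm_af_le hε.le) c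
    have a0 := (norm_le_pi_norm ((cmIn he ell).af ε c) 0).trans ha
    have a1 := (norm_le_pi_norm ((cmIn he ell).af ε c) 1).trans ha
    have : 0 ≤ C * (1 + A) * ‖c‖ := by positivity
    linarith
  · have h1 := hC ε hε k t ht c
    have h2 := (hA k ε (t - e k) c hε ht).2 hc
    have h3 : ‖Gf he ell k (ε, t - e k) c‖ ≤
        ‖c k‖ + A * (‖t - e k‖ + ‖ε k‖) * ‖c‖ := by
      have := norm_add_le (c k) (Gf he ell k (ε, t - e k) c - c k)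
      rw [add_sub_cancel] at this
      linarith
    have h4 : 0 ≤ (‖t - e k‖ + ‖ε k‖) * ‖c‖ := by positivity
    have h5 : 0 ≤ ‖c k‖ := norm_nonneg _
    calc ‖(cmIn he ell).af ε c 0 + (cmIn he ell).af ε c 1 * t‖
        ≤ C * (‖c k‖ + A * (‖t - e k‖ + ‖ε k‖) * ‖c‖) :=
          h1.trans (mul_le_mul_of_nonneg_left h3 hC0)
      _ = C * ‖c k‖ + C * A * ((‖t - e k‖ + ‖ε k‖) * ‖c‖) := by ring
      _ ≤ (2 * (cmIn he ell).bd + C * (1 + A)) * ‖c k‖ +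
          (2 * (cmIn he ell).bd + C * (1 + A)) * ((‖t - e k‖ + ‖ε k‖) * ‖c‖) := by
          have : 0 ≤ C * A := by positivity
          gcongr <;> nlinarith
      _ = _ := by ring

end general

/-- **(c1), (c2), (c6)** for `a = af0 (eps0 y α) (cc ξ y α)` -/
theorem aBd : ∃ K N₀ : ℝ, 1 ≤ K ∧ 1 ≤ N₀ ∧ ∀ y α, BaseOk N₀ y α → ∀ ξ, IsCl ξ →
    ‖af0 (eps0 y α) (cc ξ y α) 0‖ + ‖af0 (eps0 y α) (cc ξ y α) 1‖ ≤ K * ‖ξ‖ ∧
    (∀ k, ‖af0 (eps0 y α) (cc ξ y α) 0 + af0 (eps0 y α) (cc ξ y α) 1 * ctr k‖ ≤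
      K * (|bt ξ k| + ‖ξ‖ / y k)) ∧
    (∀ k t, ‖t - ctr k‖ ≤ 3 / 2 →
      ‖af0 (eps0 y α) (cc ξ y α) 0 + af0 (eps0 y α) (cc ξ y α) 1 * t‖ ≤
        K * (|bt ξ k| + ‖ξ‖ * (1 / y k + ‖t - ctr k‖))) ∧
    ((∀ k, bt ξ k = 0) →
      ‖af0 (eps0 y α) (cc ξ y α) 0‖ + ‖af0 (eps0 y α) (cc ξ y α) 1‖ ≤ K * H562.ww ξ y) := by
  obtain ⟨C, N₀, hC1, hN1, hC⟩ := exists_cc
  obtain ⟨A, hA0, hA⟩ := exists_lin sep_ctr ell0
  refine ⟨(A + 1) * (2 * C), N₀, by nlinarith, hN1, fun y α hy ξ hξ => ?_⟩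
  obtain ⟨⟨e1, -, e3, -⟩, hcc⟩ := hC y α hy
  obtain ⟨c1, c2, c3, c4⟩ := hcc ξ hξ
  have hypos : ∀ k, 0 < y k := fun k => by linarith [hy.1 k]
  obtain ⟨b1, b2⟩ := hA (eps0 y α) e1 (cc ξ y α)
  have hnξ := norm_nonneg ξ
  have hC0 : 0 ≤ C := by linarith
  have key : ∀ k t, ‖t - ctr k‖ ≤ 3 / 2 →
      ‖af0 (eps0 y α) (cc ξ y α) 0 + af0 (eps0 y α) (cc ξ y α) 1 * t‖ ≤
        (A + 1) * (2 * C) * (|bt ξ k| + ‖ξ‖ * (1 / y k + ‖t - ctr k‖)) := by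
    intro k t ht
    have h1 : ‖af0 (eps0 y α) (cc ξ y α) 0 + af0 (eps0 y α) (cc ξ y α) 1 * t‖ ≤
      A * (‖cc ξ y α k‖ + (‖t - ctr k‖ + ‖eps0 y α k‖) * ‖cc ξ y α‖) := b2 c1 k t ht
    have h2 := c3 k
    have h3 := e3 k
    set u : ℝ := 1 / y k with hu
    have hu0 : 0 ≤ u := one_div_nonneg.2 (hypos k).le
    have h6 : ‖ξ‖ / y k = ‖ξ‖ * u := by rw [hu]; ring
    rw [h6] at h2
    set z : ℝ := ‖t - ctr k‖ with hz
    have hz0 : 0 ≤ z := norm_nonneg _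
    have hb0 : 0 ≤ |bt ξ k| := abs_nonneg _
    have h7 : (z + ‖eps0 y α k‖) * ‖cc ξ y α‖ ≤ (z + u) * (C * ‖ξ‖) := by gcongr
    have h8 : 0 ≤ ‖ξ‖ * (u + z) := by positivity
    calc _ ≤ A * (C * (|bt ξ k| + ‖ξ‖ * u) + (z + u) * (C * ‖ξ‖)) :=
          h1.trans (mul_le_mul_of_nonneg_left (add_le_add h2 h7) hA0)
      _ = A * C * (|bt ξ k| + ‖ξ‖ * u + ‖ξ‖ * (u + z)) := by ring
      _ ≤ A * C * (2 * (|bt ξ k| + ‖ξ‖ * (u + z))) := by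
          have : 0 ≤ ‖ξ‖ * z := by positivity
          have hAC : 0 ≤ A * C := by positivity
          refine mul_le_mul_of_nonneg_left ?_ hAC
          nlinarith
      _ ≤ (A + 1) * (2 * C) * (|bt ξ k| + ‖ξ‖ * (u + z)) := by
          have h9 : 0 ≤ |bt ξ k| + ‖ξ‖ * (u + z) := by positivity
          nlinarith
  refine ⟨?_, fun k => ?_, key, fun hb => ?_⟩
  · have h1 : ‖af0 (eps0 y α) (cc ξ y α) 0‖ + ‖af0 (eps0 y α) (cc ξ y α) 1‖ ≤ A * ‖cc ξ y α‖ := b1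
    have h2 : A * ‖cc ξ y α‖ ≤ A * (C * ‖ξ‖) := mul_le_mul_of_nonneg_left c2 hA0
    have h3 : 0 ≤ A * C * ‖ξ‖ := by positivity
    have h4 : 0 ≤ C * ‖ξ‖ := by positivity
    nlinarith
  · have h1 := key k (ctr k) (by rw [sub_self, norm_zero]; norm_num)
    rw [sub_self, norm_zero, add_zero, mul_one_div] at h1
    exact h1
  · have h1 : ‖af0 (eps0 y α) (cc ξ y α) 0‖ + ‖af0 (eps0 y α) (cc ξ y α) 1‖ ≤ A * ‖cc ξ y α‖ := b1
    have hw := c4 hb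
    have h2 : A * ‖cc ξ y α‖ ≤ A * (C * H562.ww ξ y) := mul_le_mul_of_nonneg_left hw hA0
    have hww0 : 0 ≤ H562.ww ξ y :=
      Finset.sum_nonneg fun k _ => div_nonneg (abs_nonneg _) (hypos k).le
    have h3 : 0 ≤ A * C * H562.ww ξ y := by positivity
    have h4 : 0 ≤ C * H562.ww ξ y := by positivity
    nlinarith

end Vale.Agent.P273.H630
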