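import Vale.Agent.P273.H630.HnBd
import Vale.Agent.P273.H95.Wall

/-!
# P273, ASY0: the data `D0 : KapData (Fin 3)` of the theta point (centres `H95.ctr`)

`ell0 k l` = the logarithm of `ctr k - ctr l` continued above the real axis from `+∞`.
-/

noncomputable section

namespace Vale.Agent.P273.H630

open Finset Complex Metric Set
open Vale.Agent.P273.H722
open Vale.Agent.P273.H517 (Sep Sm SmS cm kp MM)
open Vale.Agent.P273.H95 (ctr)

theorem ctr_sub (k l : Fin 3) : ctr k - ctr l = ((2 * ((k : ℝ) - (l : ℝ)) : ℝ) : ℂ) := by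
  unfold ctr
  push_cast
  ring

theorem norm_ctr_sub (k l : Fin 3) : ‖ctr k - ctr l‖ = 2 * |(k : ℝ) - (l : ℝ)| := by
  rw [ctr_sub, Complex.norm_real, Real.norm_eq_abs, abs_mul, abs_of_pos (by norm_num : (0 : ℝ) < 2)]

theorem sep_ctr : Sep ctr := by
  intro k l h
  rw [norm_ctr_sub]
  have h1 : (1 : ℝ) ≤ |(k : ℝ) - (l : ℝ)| := by
    have h2 : ((k : ℕ) : ℤ) - ((l : ℕ) : ℤ) ≠ 0 := by
      intro h3
      exact h (Fin.ext (by omega))
    have h4 := Int.one_le_abs h2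
    have h5 : (|(((k : ℕ) : ℤ) - ((l : ℕ) : ℤ))| : ℝ) = |(k : ℝ) - (l : ℝ)| := by push_cast; rfl
    rw [← h5]
    exact_mod_cast h4
  linarith

/-- the logarithms of the differences of the centres -/
def ell0 (k l : Fin 3) : ℂ := (Real.log ‖ctr k - ctr l‖ : ℂ) + if k < l then (Real.pi : ℂ) * I else 0

theorem exp_ell0 {k l : Fin 3} (h : k ≠ l) : Complex.exp (ell0 k l) = ctr k - ctr l := by
  have h1 : 0 < ‖ctr k - ctr l‖ := by
    have := sep_ctr k l h
    linarith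
  unfold ell0
  rw [Complex.exp_add, ← Complex.ofReal_exp, Real.exp_log h1]
  by_cases hkl : k < l
  · rw [if_pos hkl, Complex.exp_pi_mul_I, norm_ctr_sub, ctr_sub]
    have h2 : (k : ℝ) - (l : ℝ) < 0 := by
      have : (k : ℕ) < (l : ℕ) := hkl
      have : ((k : ℕ) : ℝ) < ((l : ℕ) : ℝ) := by exact_mod_cast this
      linarith
    rw [abs_of_neg h2]
    push_cast
    ring
  · rw [if_neg hkl, Complex.exp_zero, mul_one, norm_ctr_sub, ctr_sub]
    have h2 : 0 ≤ (k : ℝ) - (l : ℝ) := by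
      have : (l : ℕ) ≤ (k : ℕ) := not_lt.1 hkl
      have : ((l : ℕ) : ℝ) ≤ ((k : ℕ) : ℝ) := by exact_mod_cast this
      linarith
    rw [abs_of_nonneg h2]

/-- the input of (K) at the theta point -/
def I0 : CmIn := cmIn sep_ctr ell0

/-- **the data of H722 at the theta point** -/
def D0 : KapData (Fin 3) := I0.kapData

/-- residues `c` to coefficients `a` -/
def af0 (ε : E3) : E3 →L[ℂ] E2 := I0.af ε

/-- **the constants `κ` of H562** -/
def kap0 (k l : Fin 3) : ℝ := -(RG (Pi.single l (1 : ℝ)) (D0.kap 0) k)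

theorem ib_sum (β : Fin 3 → ℝ) : ib β = ∑ l, (β l : ℂ) • ib (Pi.single l (1 : ℝ)) := by
  funext k
  rw [Finset.sum_apply]
  simp only [Pi.smul_apply, smul_eq_mul, ib]
  rw [Finset.sum_eq_single k]
  · simp
    ring
  · intro l _ hl
    simp [Pi.single_eq_of_ne (Ne.symm hl)]
  · intro h
    exact absurd (Finset.mem_univ k) h

/-- `∑ κ_kl β_l = - Re (kap 0 (I β / π)) k` -/
theorem sum_kap0 (β : Fin 3 → ℝ) (k : Fin 3) :
    ∑ l, kap0 k l * β l = -(RG β (D0.kap 0) k) := by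
  have h1 : RG β (D0.kap 0) k = ∑ l, β l * RG (Pi.single l (1 : ℝ)) (D0.kap 0) k := by
    rw [RG_apply, ib_sum β, map_sum, Finset.sum_apply, Complex.re_sum]
    refine Finset.sum_congr rfl fun l _ => ?_
    rw [map_smul, Pi.smul_apply, smul_eq_mul, Complex.re_ofReal_mul, RG_apply]
  rw [h1, ← Finset.sum_neg_distrib]
  refine Finset.sum_congr rfl fun l _ => ?_
  rw [kap0]
  ring

/-! ### The parameters `ε = (1/16)^2 exp (- y + i α)` -/

/-- `ε_k = (1/16)^2 exp (- y_k + i α_k)` -/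
def eps0 (y α : Fin 3 → ℝ) : E3 := fun k =>
  (1 / 16 : ℂ) ^ 2 * Complex.exp (-(y k : ℂ) + (α k : ℂ) * I)

/-- the shifted lengths `y + 2 log 16` -/
def ysh (y : Fin 3 → ℝ) : Fin 3 → ℝ := fun k => y k + 2 * Real.log 16

/-- `eps0` is H722's `ep` at the shifted lengths -/
theorem eps0_eq (y α : Fin 3 → ℝ) : eps0 y α = ep (ysh y, α) := by
  funext k
  show (1 / 16 : ℂ) ^ 2 * Complex.exp (-(y k : ℂ) + (α k : ℂ) * I) =
    Complex.exp (-((y k + 2 * Real.log 16 : ℝ) : ℂ) + (α k : ℂ) * I)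
  have h16 : Complex.exp (-(2 * (Real.log 16 : ℂ))) = (1 / 16 : ℂ) ^ 2 := by
    have h1 : -(2 * (Real.log 16 : ℂ)) = ((-(2 * Real.log 16) : ℝ) : ℂ) := by push_cast; ring
    rw [h1, ← Complex.ofReal_exp, Real.exp_neg, two_mul, Real.exp_add,
      Real.exp_log (by norm_num : (0 : ℝ) < 16)]
    push_cast
    norm_num
  rw [← h16, ← Complex.exp_add]
  congr 1
  push_cast
  ring

theorem norm_eps0_apply (y α : Fin 3 → ℝ) (k : Fin 3) :
    ‖eps0 y α k‖ = (1 / 16) ^ 2 * Real.exp (-(y k)) := by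
  unfold eps0
  rw [norm_mul, Complex.norm_exp]
  simp

theorem norm_eps0_le {y α : Fin 3 → ℝ} {m : ℝ} (h : ∀ k, m ≤ y k) :
    ‖eps0 y α‖ ≤ (1 / 16) ^ 2 * Real.exp (-m) := by
  refine (pi_norm_le_iff_of_nonneg (by positivity)).2 fun k => ?_
  rw [norm_eps0_apply]
  have := Real.exp_le_exp.2 (neg_le_neg (h k))
  gcongr

/-- `‖ε k‖ ≤ 1 / y k` -/
theorem norm_eps0_apply_le {y α : Fin 3 → ℝ} {k : Fin 3} (h : 0 < y k) :
    ‖eps0 y α k‖ ≤ 1 / y k := by
  rw [norm_eps0_apply]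
  have h1 : Real.exp (-(y k)) ≤ 1 / y k := by
    rw [Real.exp_neg, ← one_div]
    refine one_div_le_one_div_of_le h ?_
    have := Real.add_one_le_exp (y k)
    linarith
  have h2 : 0 < Real.exp (-(y k)) := Real.exp_pos _
  nlinarith

/-- a length beyond which `ε` is in the region of `D0` -/
theorem exists_N0 : ∃ N₀ : ℝ, 1 ≤ N₀ ∧ ∀ y α : Fin 3 → ℝ, (∀ k, N₀ ≤ y k) →
    ‖eps0 y α‖ < D0.ρ ∧ ‖eps0 y α‖ < I0.rad ∧ D0.Big (⨅ k, ysh y k) (ysh y, α) := by
  have hρ : 0 < D0.ρ := D0.ρ_pos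
  refine ⟨max (8 * D0.κ + 1) (1 - Real.log D0.ρ), le_trans ?_ (le_max_left _ _), ?_⟩
  · have := D0.κ_one
    linarith
  intro y α hy
  have hlt : ‖eps0 y α‖ < D0.ρ := by
    refine (norm_eps0_le (m := 1 - Real.log D0.ρ) fun k => (le_max_right _ _).trans (hy k)).trans_lt
      ?_
    have h1 : Real.exp (-(1 - Real.log D0.ρ)) = D0.ρ * Real.exp (-1) := by
      rw [neg_sub, sub_eq_add_neg, Real.exp_add, Real.exp_log hρ]
    rw [h1]
    have h2 : Real.exp (-1) < 1 := by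
      rw [Real.exp_lt_one_iff]
      norm_num
    have h3 : 0 < Real.exp (-1) := Real.exp_pos _
    nlinarith
  refine ⟨hlt, hlt, ?_⟩
  obtain ⟨l, hl⟩ := Finite.exists_min (ysh y)
  have hinf : ⨅ k, ysh y k = ysh y l :=
    le_antisymm (ciInf_le (Set.finite_range _).bddBelow l) (le_ciInf hl)
  have hlog : 0 ≤ Real.log 16 := Real.log_nonneg (by norm_num)
  refine ⟨fun k => ?_, ⟨l, ?_⟩, ?_, ?_⟩
  · rw [hinf]; exact hl k
  · rw [hinf]
  · rw [hinf]
    have := (le_max_left (8 * D0.κ + 1) (1 - Real.log D0.ρ)).trans (hy l)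
    show 8 * D0.κ < y l + 2 * Real.log 16
    linarith
  · rw [← eps0_eq]
    exact hlt

end Vale.Agent.P273.H630
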