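import Vale.Agent.P273.H630.KapInst

/-!
# P273, ASY0 (T3e), analytic input: size of `(a 0 + a 1 x) dx / y` on the theta curve

`a = af ε c`, `c` with `∑ c = 0`. Near the centre `e k`: `y = (square root of z ^ 2 - ε k) * h`,
`G k (ε, z) c = (a 0 + a 1 x) / h`, and `‖G k (ε, z) c - c k‖ ≤ A (‖z‖ + ‖ε k‖) ‖c‖` (only `ε k`!).
-/

noncomputable section

namespace Vale.Agent.P273.H630

open Finset Complex Metric Set
open Vale.Agent.P273.H722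
open Vale.Agent.P273.H598 (rz rz_sq rz_ne_zero)
open Vale.Agent.P273.H517 (Sep Sm SmS cm kp MM ps ph ph0 hn hn_dc differentiableOn_hn2 cm_eq_c0
  rz_lower)

variable {e : Fin 3 → ℂ} (he : Sep e) (ell : Fin 3 → Fin 3 → ℂ)

/-- `(a 0 + a 1 x)` divided by the square roots of the two other pairs, `x = e k + z` -/
def Gf (k : Fin 3) (p : E3 × ℂ) : E3 →L[ℂ] ℂ :=
  hn e p.1 0 k p.2 • (cmIn he ell).a0 p.1 + hn e p.1 1 k p.2 • (cmIn he ell).a1 p.1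

theorem Gf_apply (k : Fin 3) (p : E3 × ℂ) (c : E3) :
    Gf he ell k p c = ∑ m : Fin 2, (cmIn he ell).af p.1 c m * hn e p.1 (m : ℕ) k p.2 := by
  have h0 : (cmIn he ell).af p.1 c 0 = (cmIn he ell).a0 p.1 c := rfl
  have h1 : (cmIn he ell).af p.1 c 1 = (cmIn he ell).a1 p.1 c := rfl
  rw [Fin.sum_univ_two, h0, h1]
  simp only [Gf, add_apply, smul_apply, smul_eq_mul, Fin.val_zero, Fin.val_one]
  ring

theorem Om_sm {ε : E3} (h : ε ∈ (cmIn he ell).Om) : ε ∈ SmS := sm_of_ball h.1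

theorem analyticAt_Gf (k : Fin 3) {p : E3 × ℂ} (h1 : p.1 ∈ (cmIn he ell).Om)
    (h2 : p.2 ∈ ball (0 : ℂ) (7 / 4)) : AnalyticAt ℂ (Gf he ell k) p := by
  have hh : ∀ m : ℕ, AnalyticAt ℂ (fun p : E3 × ℂ => hn e p.1 m k p.2) p := fun m =>
    Vale.Agent.P268.analyticAt_of_differentiableOn (H517.isOpen_SmS.prod isOpen_ball)
      (differentiableOn_hn2 he m k) ⟨Om_sm he ell h1, h2⟩
  have ha0 : AnalyticAt ℂ (fun p : E3 × ℂ => (cmIn he ell).a0 p.1) p :=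
    ((cmIn he ell).analyticAt_a0 h1.1 h1.2).comp analyticAt_fst
  have ha1 : AnalyticAt ℂ (fun p : E3 × ℂ => (cmIn he ell).a1 p.1) p :=
    ((cmIn he ell).analyticAt_a1 h1.1 h1.2).comp analyticAt_fst
  exact ((hh 0).smul ha0).add ((hh 1).smul ha1)

/-- **bounds of `G` and its derivative on the compact polydisc** -/
theorem exists_Gf_bound : ∃ A : ℝ, 0 ≤ A ∧ ∀ k, ∀ p : E3 × ℂ, ‖p.1‖ ≤ (cmIn he ell).rad →
    ‖p.2‖ ≤ 3 / 2 → ‖Gf he ell k p‖ ≤ A ∧ ‖fderiv ℂ (Gf he ell k) p‖ ≤ A := by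
  have hU : IsOpen ((cmIn he ell).Om ×ˢ ball (0 : ℂ) (7 / 4)) :=
    (cmIn he ell).isOpen_Om.prod isOpen_ball
  have hK : IsCompact (closedBall (0 : E3) (cmIn he ell).rad ×ˢ closedBall (0 : ℂ) (3 / 2)) :=
    (isCompact_closedBall _ _).prod (isCompact_closedBall _ _)
  have hKU : closedBall (0 : E3) (cmIn he ell).rad ×ˢ closedBall (0 : ℂ) (3 / 2) ⊆
      (cmIn he ell).Om ×ˢ ball (0 : ℂ) (7 / 4) :=
    Set.prod_mono (cmIn he ell).closedBall_rad (closedBall_subset_ball (by norm_num))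
  have key : ∀ k, ∃ A : ℝ, ∀ p ∈ closedBall (0 : E3) (cmIn he ell).rad ×ˢ
      closedBall (0 : ℂ) (3 / 2), ‖Gf he ell k p‖ ≤ A ∧ ‖fderiv ℂ (Gf he ell k) p‖ ≤ A := by
    intro k
    have hc : ContDiffOn ℂ 1 (Gf he ell k) ((cmIn he ell).Om ×ˢ ball (0 : ℂ) (7 / 4)) :=
      fun p hp => (analyticAt_Gf he ell k hp.1 hp.2).contDiffAt.contDiffWithinAt
    obtain ⟨C1, h1⟩ := hK.exists_bound_of_continuousOn (hc.continuousOn.mono hKU)
    obtain ⟨C2, h2⟩ := hK.exists_bound_of_continuousOn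
      ((hc.continuousOn_fderiv_of_isOpen hU le_rfl).mono hKU)
    exact ⟨max C1 C2, fun p hp => ⟨(h1 p hp).trans (le_max_left _ _),
      (h2 p hp).trans (le_max_right _ _)⟩⟩
  choose A hA using key
  refine ⟨∑ k, |A k|, by positivity, fun k p h1 h2 => ?_⟩
  have h3 : A k ≤ ∑ k, |A k| := (le_abs_self _).trans
    (single_le_sum (f := fun k => |A k|) (fun _ _ => abs_nonneg _) (mem_univ k))
  have h4 := hA k p ⟨mem_closedBall_zero_iff.2 h1, mem_closedBall_zero_iff.2 h2⟩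
  exact ⟨h4.1.trans h3, h4.2.trans h3⟩

include he in
/-- at `z = 0`, `ε k = 0` the factor is the residue -/
theorem hn_zero {ε : E3} (hs : Sm ε) {k : Fin 3} (hk : ε k = 0) (m : ℕ) :
    hn e ε m k 0 = cm e ε m k := by
  rw [cm_eq_c0 he hs m k, hk]
  exact (H598.c0_zero (h := hn e ε m k) (r := 3 / 2) (by norm_num) (hn_dc he hs m k)).symm

theorem Gf_zero {ε : E3} (hε : ‖ε‖ < (cmIn he ell).rad) {k : Fin 3} (hk : ε k = 0) {c : E3}
    (hc : ∑ l, c l = 0) : Gf he ell k (ε, 0) c = c k := by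
  rw [Gf_apply, Fin.sum_univ_two]
  have hs := sm_of_rad he ell hε.le
  have h := af_cm_theta he ell hε hc k
  rw [← hn_zero he hs hk 0, ← hn_zero he hs hk 1] at h
  exact h

/-- **the size of `G`: it is the residue up to `‖z‖ + ‖ε k‖`** -/
theorem exists_Gf_sub : ∃ A : ℝ, 0 ≤ A ∧ ∀ (k : Fin 3) (ε : E3) (z : ℂ) (c : E3),
    ‖ε‖ < (cmIn he ell).rad → ‖z‖ ≤ 3 / 2 →
      ‖Gf he ell k (ε, z) c‖ ≤ A * ‖c‖ ∧
      (∑ l, c l = 0 → ‖Gf he ell k (ε, z) c - c k‖ ≤ A * (‖z‖ + ‖ε k‖) * ‖c‖) := by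
  obtain ⟨A, hA0, hA⟩ := exists_Gf_bound he ell
  refine ⟨A, hA0, fun k ε z c hε hz => ⟨?_, fun hc => ?_⟩⟩
  · exact ((Gf he ell k (ε, z)).le_opNorm c).trans
      (mul_le_mul_of_nonneg_right (hA k (ε, z) hε.le hz).1 (norm_nonneg _))
  -- compare with `ε k := 0`, `z := 0`
  let ε' : E3 := Function.update ε k 0
  have hε' : ‖ε'‖ ≤ ‖ε‖ := by
    refine (pi_norm_le_iff_of_nonneg (norm_nonneg _)).2 fun l => ?_
    by_cases hl : l = k
    · subst hl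
      simp [ε']
    · rw [show ε' l = ε l from Function.update_of_ne hl _ _]
      exact norm_le_pi_norm ε l
  have hk : ε' k = 0 := Function.update_self _ _ _
  have hsub : ‖ε - ε'‖ ≤ ‖ε k‖ := by
    refine (pi_norm_le_iff_of_nonneg (norm_nonneg _)).2 fun l => ?_
    by_cases hl : l = k
    · subst hl
      rw [Pi.sub_apply, hk, sub_zero]
    · rw [Pi.sub_apply, show ε' l = ε l from Function.update_of_ne hl _ _, sub_self, norm_zero]
      exact norm_nonneg _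
  have hconv : Convex ℝ (closedBall (0 : E3) (cmIn he ell).rad ×ˢ closedBall (0 : ℂ) (3 / 2)) :=
    (convex_closedBall _ _).prod (convex_closedBall _ _)
  have m1 : ((ε, z) : E3 × ℂ) ∈
      closedBall (0 : E3) (cmIn he ell).rad ×ˢ closedBall (0 : ℂ) (3 / 2) :=
    ⟨mem_closedBall_zero_iff.2 hε.le, mem_closedBall_zero_iff.2 hz⟩
  have m2 : ((ε', 0) : E3 × ℂ) ∈
      closedBall (0 : E3) (cmIn he ell).rad ×ˢ closedBall (0 : ℂ) (3 / 2) :=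
    ⟨mem_closedBall_zero_iff.2 (hε'.trans hε.le), mem_closedBall_self (by norm_num)⟩
  have h1 : ‖Gf he ell k (ε, z) - Gf he ell k (ε', 0)‖ ≤ A * ‖((ε, z) : E3 × ℂ) - (ε', 0)‖ := by
    refine hconv.norm_image_sub_le_of_norm_fderiv_le (𝕜 := ℂ) (f := Gf he ell k) ?_ ?_ m2 m1
    · rintro p ⟨hp1, hp2⟩
      exact (analyticAt_Gf he ell k ((cmIn he ell).closedBall_rad hp1)
        (closedBall_subset_ball (by norm_num) hp2)).differentiableAt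
    · rintro p ⟨hp1, hp2⟩
      exact (hA k p (mem_closedBall_zero_iff.1 hp1) (mem_closedBall_zero_iff.1 hp2)).2
  have h2 : ‖((ε, z) : E3 × ℂ) - (ε', 0)‖ ≤ ‖z‖ + ‖ε k‖ := by
    rw [Prod.mk_sub_mk, sub_zero, Prod.norm_mk]
    exact max_le (hsub.trans (le_add_of_nonneg_left (norm_nonneg _)))
      (le_add_of_nonneg_right (norm_nonneg _))
  have h3 : Gf he ell k (ε, z) c - c k = (Gf he ell k (ε, z) - Gf he ell k (ε', 0)) c := by
    rw [sub_apply, Gf_zero he ell (hε'.trans_lt hε) hk hc]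
  rw [h3]
  refine ((Gf he ell k (ε, z) - Gf he ell k (ε', 0)).le_opNorm c).trans
    (mul_le_mul_of_nonneg_right (h1.trans (mul_le_mul_of_nonneg_left h2 hA0)) (norm_nonneg _))

/-! ### The core -/

theorem norm_ps_le {ε : E3} {k : Fin 3} {x : ℂ} (hx : x - e k ≠ 0)
    (h : 2 * ‖ε k‖ ≤ ‖x - e k‖ ^ 2) : ‖ps e ε k x‖ ≤ 2 / ‖x - e k‖ := by
  have h1 := rz_lower hx h
  have h2 : 0 < ‖x - e k‖ := norm_pos_iff.2 hx
  unfold ps
  rw [norm_inv]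
  calc ‖rz (ε k) (x - e k)‖⁻¹ ≤ (‖x - e k‖ / 2)⁻¹ := inv_anti₀ (by positivity) h1
    _ = 2 / ‖x - e k‖ := by rw [inv_div]

/-- **the size of `(a 0 + a 1 x) / y` on the core** -/
theorem exists_core_bound : ∃ A : ℝ, 0 ≤ A ∧ ∀ (ε : E3) (c : E3) (x : ℂ),
    ‖ε‖ < (cmIn he ell).rad → (∀ l, 1 / 64 ≤ ‖x - e l‖) →
      ‖∑ m : Fin 2, (cmIn he ell).af ε c m * ph e ε (m : ℕ) x‖ ≤ A * ‖c‖ / (1 + ‖x‖) ^ 2 := by
  obtain ⟨B, hB0, hB⟩ : ∃ B : ℝ, 0 ≤ B ∧ ∀ ε : E3, ‖ε‖ < (cmIn he ell).rad →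
      ‖(cmIn he ell).af ε‖ ≤ B :=
    ⟨(cmIn he ell).bd, zero_le_one.trans (cmIn he ell).one_le_bd,
      fun ε h => (cmIn he ell).norm_af_le h.le⟩
  set C : ℝ := 1 + 64 * (1 + ∑ l, ‖e l‖) with hC
  have hS : 0 ≤ ∑ l, ‖e l‖ := sum_nonneg fun _ _ => norm_nonneg _
  have hC0 : 0 < C := by positivity
  refine ⟨B * (2 * C) ^ 3, by positivity, fun ε c x hε hx => ?_⟩
  have hs := sm_of_rad he ell hε.le
  have h1x : 0 < 1 + ‖x‖ := by positivity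
  have hps : ∀ l, ‖ps e ε l x‖ ≤ 2 * C / (1 + ‖x‖) := by
    intro l
    have hxl := hx l
    have hpos : 0 < ‖x - e l‖ := by linarith [show (0 : ℝ) < 1 / 64 by norm_num]
    have h2 : 2 * ‖ε l‖ ≤ ‖x - e l‖ ^ 2 := by
      have := (hs l).le
      have h3 : (1 / 64 : ℝ) ^ 2 ≤ ‖x - e l‖ ^ 2 := pow_le_pow_left₀ (by norm_num) hxl 2
      norm_num at this h3 ⊢
      linarith
    refine (norm_ps_le (norm_pos_iff.1 hpos) h2).trans ?_
    rw [div_le_div_iff₀ hpos h1x]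
    have h4 : ‖x‖ ≤ ‖x - e l‖ + ‖e l‖ := by
      have := norm_add_le (x - e l) (e l)
      rwa [sub_add_cancel] at this
    have h5 : ‖e l‖ ≤ ∑ l, ‖e l‖ :=
      single_le_sum (f := fun l => ‖e l‖) (fun _ _ => norm_nonneg _) (mem_univ l)
    have h6 : 1 + ∑ l, ‖e l‖ ≤ 64 * (1 + ∑ l, ‖e l‖) * ‖x - e l‖ := by
      nlinarith
    rw [hC]
    nlinarith
  have hph : ‖ph0 e ε x‖ ≤ (2 * C / (1 + ‖x‖)) ^ 3 := by
    unfold ph0
    rw [norm_mul, norm_mul, pow_succ, pow_two]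
    have := hps 0
    have := hps 1
    have := hps 2
    gcongr <;> assumption
  have e1 : ∑ m : Fin 2, (cmIn he ell).af ε c m * ph e ε (m : ℕ) x =
      ((cmIn he ell).af ε c 0 + (cmIn he ell).af ε c 1 * x) * ph0 e ε x := by
    rw [Fin.sum_univ_two]
    simp only [ph, Fin.val_zero, Fin.val_one, pow_zero, pow_one]
    ring
  have ha : ‖(cmIn he ell).af ε c‖ ≤ B * ‖c‖ :=
    ((cmIn he ell).af ε).le_of_opNorm_le (hB ε hε) c
  have h7 : ‖(cmIn he ell).af ε c 0 + (cmIn he ell).af ε c 1 * x‖ ≤ B * ‖c‖ * (1 + ‖x‖) := by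
    refine (norm_add_le _ _).trans ?_
    rw [norm_mul]
    have a0 := (norm_le_pi_norm ((cmIn he ell).af ε c) 0).trans ha
    have a1 := (norm_le_pi_norm ((cmIn he ell).af ε c) 1).trans ha
    have a2 := mul_le_mul_of_nonneg_right a1 (norm_nonneg x)
    linarith
  rw [e1, norm_mul]
  refine (mul_le_mul h7 hph (norm_nonneg _) (by positivity)).trans (le_of_eq ?_)
  field_simp

/-! ### In terms of a square root `yy` of the sextic -/

/-- the sextic with the roots `e l ± (ε l)^(1/2)` -/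
def sex (e ε : E3) (x : ℂ) : ℂ := ∏ l, ((x - e l) ^ 2 - ε l)

theorem norm_ps_sq {ε : E3} {l : Fin 3} {x : ℂ} (hx : x ≠ e l) (h : (x - e l) ^ 2 - ε l ≠ 0) :
    ‖ps e ε l x‖ ^ 2 * ‖(x - e l) ^ 2 - ε l‖ = 1 := by
  unfold ps
  rw [← norm_pow, ← norm_mul, inv_pow, rz_sq (sub_ne_zero.2 hx), inv_mul_cancel₀ h, norm_one]

/-- near the centre `e k` -/
theorem near_id {ε : E3} {k : Fin 3} {x yy : ℂ} (hx : ∀ l, l ≠ k → x ≠ e l)
    (hy : yy ^ 2 = sex e ε x) (hy0 : yy ≠ 0) (a0 a1 : ℂ) :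
    ‖(a0 + a1 * x) / yy‖ * Real.sqrt ‖(x - e k) ^ 2 - ε k‖ =
      ‖a0 * hn e ε 0 k (x - e k) + a1 * hn e ε 1 k (x - e k)‖ := by
  have hf : ∀ l, (x - e l) ^ 2 - ε l ≠ 0 := by
    intro l h
    have h1 : sex e ε x = 0 := prod_eq_zero (mem_univ l) h
    rw [h1] at hy
    exact hy0 (pow_eq_zero_iff (two_ne_zero) |>.1 hy)
  have e1 : a0 * hn e ε 0 k (x - e k) + a1 * hn e ε 1 k (x - e k) =
      (a0 + a1 * x) * ∏ l ∈ univ.erase k, ps e ε l x := by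
    unfold hn
    rw [add_sub_cancel]
    ring
  set P : ℝ := ∏ l ∈ univ.erase k, ‖ps e ε l x‖ with hP
  have hP0 : 0 ≤ P := prod_nonneg fun _ _ => norm_nonneg _
  have hP2 : P ^ 2 * ∏ l ∈ univ.erase k, ‖(x - e l) ^ 2 - ε l‖ = 1 := by
    rw [hP, ← Finset.prod_pow, ← prod_mul_distrib]
    exact prod_eq_one fun l hl => norm_ps_sq (hx l (ne_of_mem_erase hl)) (hf l)
  have hyn : ‖yy‖ ^ 2 = ‖(x - e k) ^ 2 - ε k‖ * ∏ l ∈ univ.erase k, ‖(x - e l) ^ 2 - ε l‖ := by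
    rw [← norm_pow, hy, sex, ← mul_prod_erase univ _ (mem_univ k), norm_mul, norm_prod]
  have h3 : Real.sqrt ‖(x - e k) ^ 2 - ε k‖ = ‖yy‖ * P := by
    rw [Real.sqrt_eq_iff_mul_self_eq (norm_nonneg _) (by positivity)]
    symm
    calc ‖yy‖ * P * (‖yy‖ * P) = ‖yy‖ ^ 2 * P ^ 2 := by ring
      _ = ‖(x - e k) ^ 2 - ε k‖ * (P ^ 2 * ∏ l ∈ univ.erase k, ‖(x - e l) ^ 2 - ε l‖) := by
          rw [hyn]; ring
      _ = _ := by rw [hP2, mul_one]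
  have hyn0 : ‖yy‖ ≠ 0 := norm_ne_zero_iff.2 hy0
  rw [e1, norm_mul, norm_prod, h3, norm_div, ← hP]
  field_simp

/-- on the core -/
theorem core_id {ε : E3} {x yy : ℂ} (hx : ∀ l, x ≠ e l)
    (hy : yy ^ 2 = sex e ε x) (hy0 : yy ≠ 0) (a0 a1 : ℂ) :
    ‖(a0 + a1 * x) / yy‖ = ‖a0 * ph e ε 0 x + a1 * ph e ε 1 x‖ := by
  have hf : ∀ l, (x - e l) ^ 2 - ε l ≠ 0 := by
    intro l h
    have h1 : sex e ε x = 0 := prod_eq_zero (mem_univ l) h
    rw [h1] at hy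
    exact hy0 (pow_eq_zero_iff (two_ne_zero) |>.1 hy)
  have e1 : a0 * ph e ε 0 x + a1 * ph e ε 1 x = (a0 + a1 * x) * ph0 e ε x := by
    unfold ph
    ring
  have h0 : ph0 e ε x = ∏ l, ps e ε l x := by
    rw [Fin.prod_univ_three]
    rfl
  have h2 : ‖ph0 e ε x‖ ^ 2 * ‖yy‖ ^ 2 = 1 := by
    rw [← norm_pow yy, hy, h0, sex, norm_prod, norm_prod, ← Finset.prod_pow, ← prod_mul_distrib]
    exact prod_eq_one fun l _ => norm_ps_sq (hx l) (hf l)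
  have h3 : ‖ph0 e ε x‖ * ‖yy‖ = 1 := by
    have h4 : (‖ph0 e ε x‖ * ‖yy‖) ^ 2 = 1 := by rw [mul_pow, h2]
    have h5 : 0 ≤ ‖ph0 e ε x‖ * ‖yy‖ := by positivity
    nlinarith
  have hyn0 : ‖yy‖ ≠ 0 := norm_ne_zero_iff.2 hy0
  rw [e1, norm_mul, norm_div, div_eq_iff hyn0, mul_assoc, h3, mul_one]

/-- **THE BOUNDS of (T3e)**: `a = af ε c`, `∑ c = 0`, `yy ^ 2 = ∏ ((x - e l) ^ 2 - ε l)`. -/
theorem exists_vert_bound : ∃ A : ℝ, 0 ≤ A ∧ ∀ (ε c : E3) (x yy : ℂ),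
    ‖ε‖ < (cmIn he ell).rad → yy ^ 2 = sex e ε x → yy ≠ 0 →
    (∀ k, ‖x - e k‖ ≤ 3 / 2 →
      ‖((cmIn he ell).af ε c 0 + (cmIn he ell).af ε c 1 * x) / yy‖ *
          Real.sqrt ‖(x - e k) ^ 2 - ε k‖ ≤ A * ‖c‖ ∧
      (∑ l, c l = 0 →
        ‖((cmIn he ell).af ε c 0 + (cmIn he ell).af ε c 1 * x) / yy‖ *
          Real.sqrt ‖(x - e k) ^ 2 - ε k‖ ≤ ‖c k‖ + A * (‖x - e k‖ + ‖ε k‖) * ‖c‖)) ∧
    ((∀ l, 1 / 64 ≤ ‖x - e l‖) →
      ‖((cmIn he ell).af ε c 0 + (cmIn he ell).af ε c 1 * x) / yy‖ ≤ A * ‖c‖ / (1 + ‖x‖) ^ 2) := by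
  obtain ⟨A, hA0, hA⟩ := exists_Gf_sub he ell
  obtain ⟨B, hB0, hB⟩ := exists_core_bound he ell
  refine ⟨max A B, hA0.trans (le_max_left _ _), fun ε c x yy hε hy hy0 => ⟨fun k hk => ?_, ?_⟩⟩
  · have hx : ∀ l, l ≠ k → x ≠ e l := by
      rintro l hl rfl
      have := he l k hl
      linarith
    have e1 : Gf he ell k (ε, x - e k) c = (cmIn he ell).af ε c 0 * hn e ε 0 k (x - e k) +
        (cmIn he ell).af ε c 1 * hn e ε 1 k (x - e k) := by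
      rw [Gf_apply, Fin.sum_univ_two]
      rfl
    rw [near_id hx hy hy0, ← e1]
    obtain ⟨h1, h2⟩ := hA k ε (x - e k) c hε hk
    have hmax : A ≤ max A B := le_max_left _ _
    refine ⟨h1.trans (mul_le_mul_of_nonneg_right hmax (norm_nonneg _)), fun hc => ?_⟩
    have h3 := h2 hc
    have h4 : ‖Gf he ell k (ε, x - e k) c‖ ≤
        ‖c k‖ + ‖Gf he ell k (ε, x - e k) c - c k‖ := by
      have := norm_add_le (c k) (Gf he ell k (ε, x - e k) c - c k)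
      rwa [add_sub_cancel] at this
    have h5 : A * (‖x - e k‖ + ‖ε k‖) * ‖c‖ ≤ max A B * (‖x - e k‖ + ‖ε k‖) * ‖c‖ := by
      gcongr
    linarith
  · intro hx
    have hx' : ∀ l, x ≠ e l := by
      rintro l rfl
      have := hx l
      rw [sub_self, norm_zero] at this
      norm_num at this
    have h1 := hB ε c x hε hx
    rw [Fin.sum_univ_two] at h1
    rw [core_id hx' hy hy0]
    refine h1.trans ?_
    have : B ≤ max A B := le_max_right _ _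
    gcongr

end Vale.Agent.P273.H630
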