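import Vale.Agent.P273.H722.Theta
import Vale.Agent.P268.Hol

/-!
# P273, LIM-B (K): the matching data of the theta curve as `KapData (Fin 3)`

Input (H517): the residues `cm m k ε` and the matching constants `kp m k ε` (`m = 0, 1`), holomorphic
near `ε = 0`. Output: the linear map `c ↦ a` (`af`) and `kap ε c k = ∑ m, a m * kp m k ε`.
-/

noncomputable section

namespace Vale.Agent.P273.H630

open Finset Complex Metric Set
open Vale.Agent.P273.H722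

/-- complex triples -/
abbrev E3 : Type := Fin 3 → ℂ
/-- the coefficients `a 0, a 1` -/
abbrev E2 : Type := Fin 2 → ℂ

/-- The input of (K). -/
structure CmIn where
  /-- the centres -/
  e : Fin 3 → ℂ
  /-- the residues of `x ^ m dx / y` -/
  cm : Fin 2 → Fin 3 → E3 → ℂ
  /-- the matching constants -/
  kp : Fin 2 → Fin 3 → E3 → ℂ
  /-- the radius -/
  ρ₀ : ℝ
  inj : Function.Injective e
  ρ₀_pos : 0 < ρ₀
  cm_hol : ∀ m k, DifferentiableOn ℂ (cm m k) (ball 0 ρ₀)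
  kp_hol : ∀ m k, DifferentiableOn ℂ (kp m k) (ball 0 ρ₀)
  sum_cm : ∀ ε ∈ ball (0 : E3) ρ₀, ∀ m, ∑ k, cm m k ε = 0
  cm_zero : ∀ m k, cm m k 0 = e k ^ (m : ℕ) / ∏ l ∈ univ.erase k, (e k - e l)

namespace CmIn

variable (D : CmIn)

/-- the determinant -/
def Δ (ε : E3) : ℂ := D.cm 0 0 ε * D.cm 1 1 ε - D.cm 0 1 ε * D.cm 1 0 ε

/-- the first coefficient -/
def a0 (ε : E3) : E3 →L[ℂ] ℂ :=
  (D.cm 1 1 ε / D.Δ ε) • (ContinuousLinearMap.proj (R := ℂ) (φ := fun _ : Fin 3 => ℂ) 0) -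
    (D.cm 1 0 ε / D.Δ ε) • (ContinuousLinearMap.proj (R := ℂ) (φ := fun _ : Fin 3 => ℂ) 1)

/-- the second coefficient -/
def a1 (ε : E3) : E3 →L[ℂ] ℂ :=
  (D.cm 0 0 ε / D.Δ ε) • (ContinuousLinearMap.proj (R := ℂ) (φ := fun _ : Fin 3 => ℂ) 1) -
    (D.cm 0 1 ε / D.Δ ε) • (ContinuousLinearMap.proj (R := ℂ) (φ := fun _ : Fin 3 => ℂ) 0)

/-- the coefficients as a linear map of the residues -/
def af (ε : E3) : E3 →L[ℂ] E2 := ContinuousLinearMap.pi ![D.a0 ε, D.a1 ε]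

/-- the matching map -/
def kapf (ε : E3) : E3 →L[ℂ] E3 :=
  ContinuousLinearMap.pi fun k => D.kp 0 k ε • D.a0 ε + D.kp 1 k ε • D.a1 ε

theorem af_zero (ε : E3) (c : E3) :
    D.af ε c 0 = (c 0 * D.cm 1 1 ε - c 1 * D.cm 1 0 ε) / D.Δ ε := by
  have h : D.af ε c 0 = D.a0 ε c := rfl
  rw [h, a0, sub_apply, smul_apply, smul_apply, ContinuousLinearMap.proj_apply,
    ContinuousLinearMap.proj_apply, smul_eq_mul, smul_eq_mul]
  ring

theorem af_one (ε : E3) (c : E3) :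
    D.af ε c 1 = (c 1 * D.cm 0 0 ε - c 0 * D.cm 0 1 ε) / D.Δ ε := by
  have h : D.af ε c 1 = D.a1 ε c := rfl
  rw [h, a1, sub_apply, smul_apply, smul_apply, ContinuousLinearMap.proj_apply,
    ContinuousLinearMap.proj_apply, smul_eq_mul, smul_eq_mul]
  ring

/-- **(3)** -/
theorem kapf_apply (ε c : E3) (k : Fin 3) : D.kapf ε c k = ∑ m, D.af ε c m * D.kp m k ε := by
  simp only [kapf, ContinuousLinearMap.coe_pi', add_apply, smul_apply, smul_eq_mul,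
    Fin.sum_univ_two]
  have h0 : D.af ε c 0 = D.a0 ε c := rfl
  have h1 : D.af ε c 1 = D.a1 ε c := rfl
  rw [h0, h1]
  ring

/-- **(1)** the coefficients reproduce the residues -/
theorem af_spec {ε : E3} (h0 : ε ∈ ball (0 : E3) D.ρ₀) (hΔ : D.Δ ε ≠ 0) {c : E3}
    (hc : ∑ k, c k = 0) (k : Fin 3) : ∑ m, D.af ε c m * D.cm m k ε = c k := by
  have s0 := D.sum_cm ε h0 0
  have s1 := D.sum_cm ε h0 1
  rw [Fin.sum_univ_three] at s0 s1 hc
  have e0 : D.af ε c 0 * D.cm 0 0 ε + D.af ε c 1 * D.cm 1 0 ε = c 0 := by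
    rw [af_zero, af_one, div_mul_eq_mul_div, div_mul_eq_mul_div, ← add_div, div_eq_iff hΔ, Δ]
    ring
  have e1 : D.af ε c 0 * D.cm 0 1 ε + D.af ε c 1 * D.cm 1 1 ε = c 1 := by
    rw [af_zero, af_one, div_mul_eq_mul_div, div_mul_eq_mul_div, ← add_div, div_eq_iff hΔ, Δ]
    ring
  rw [Fin.sum_univ_two]
  fin_cases k
  · exact e0
  · exact e1
  · have e2 : D.cm 0 2 ε = -(D.cm 0 0 ε + D.cm 0 1 ε) := by linear_combination s0
    have e3 : D.cm 1 2 ε = -(D.cm 1 0 ε + D.cm 1 1 ε) := by linear_combination s1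
    show D.af ε c 0 * D.cm 0 2 ε + D.af ε c 1 * D.cm 1 2 ε = c 2
    rw [e2, e3]
    linear_combination -e0 - e1 - hc

/-- **(2)** uniqueness of the coefficients -/
theorem af_unique {ε : E3} (hΔ : D.Δ ε ≠ 0) {c : E3} {a : E2}
    (h : ∀ k, c k = ∑ m, a m * D.cm m k ε) : D.af ε c = a := by
  have h0 := h 0
  have h1 := h 1
  rw [Fin.sum_univ_two] at h0 h1
  funext m
  fin_cases m
  · show D.af ε c 0 = a 0
    rw [af_zero, div_eq_iff hΔ, h0, h1, Δ]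
    ring
  · show D.af ε c 1 = a 1
    rw [af_one, div_eq_iff hΔ, h0, h1, Δ]
    ring

/-- the residues of the coefficients `a` add up to zero -/
theorem sum_res {ε : E3} (h0 : ε ∈ ball (0 : E3) D.ρ₀) (a : E2) :
    ∑ k, ∑ m, a m * D.cm m k ε = 0 := by
  rw [sum_comm]
  refine sum_eq_zero fun m _ => ?_
  rw [← mul_sum, D.sum_cm ε h0 m, mul_zero]

theorem Δ_zero : D.Δ 0 ≠ 0 := by
  have h01 : D.e 0 - D.e 1 ≠ 0 := sub_ne_zero.2 (D.inj.ne (by decide))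
  have h02 : D.e 0 - D.e 2 ≠ 0 := sub_ne_zero.2 (D.inj.ne (by decide))
  have h10 : D.e 1 - D.e 0 ≠ 0 := sub_ne_zero.2 (D.inj.ne (by decide))
  have h12 : D.e 1 - D.e 2 ≠ 0 := sub_ne_zero.2 (D.inj.ne (by decide))
  have p0 : ∏ l ∈ univ.erase (0 : Fin 3), (D.e 0 - D.e l) = (D.e 0 - D.e 1) * (D.e 0 - D.e 2) := by
    have : (univ : Finset (Fin 3)).erase 0 = {1, 2} := by decide
    rw [this, prod_pair (by decide)]
  have p1 : ∏ l ∈ univ.erase (1 : Fin 3), (D.e 1 - D.e l) = (D.e 1 - D.e 0) * (D.e 1 - D.e 2) := by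
    have : (univ : Finset (Fin 3)).erase 1 = {0, 2} := by decide
    rw [this, prod_pair (by decide)]
  have e1 : D.Δ 0 = (D.e 1 - D.e 0) /
      (((D.e 0 - D.e 1) * (D.e 0 - D.e 2)) * ((D.e 1 - D.e 0) * (D.e 1 - D.e 2))) := by
    unfold Δ
    rw [D.cm_zero, D.cm_zero, D.cm_zero, D.cm_zero, p0, p1]
    simp only [Fin.val_zero, pow_zero, Fin.val_one, pow_one]
    field_simp
  rw [e1]
  exact div_ne_zero h10 (mul_ne_zero (mul_ne_zero h01 h02) (mul_ne_zero h10 h12))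

/-! ### Smoothness -/

theorem analyticAt_cm (m : Fin 2) (k : Fin 3) {ε : E3} (h : ε ∈ ball (0 : E3) D.ρ₀) :
    AnalyticAt ℂ (D.cm m k) ε :=
  Vale.Agent.P268.analyticAt_of_differentiableOn isOpen_ball (D.cm_hol m k) h

theorem analyticAt_kp (m : Fin 2) (k : Fin 3) {ε : E3} (h : ε ∈ ball (0 : E3) D.ρ₀) :
    AnalyticAt ℂ (D.kp m k) ε :=
  Vale.Agent.P268.analyticAt_of_differentiableOn isOpen_ball (D.kp_hol m k) h

theorem analyticAt_Δ {ε : E3} (h : ε ∈ ball (0 : E3) D.ρ₀) : AnalyticAt ℂ D.Δ ε :=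
  ((D.analyticAt_cm 0 0 h).mul (D.analyticAt_cm 1 1 h)).sub
    ((D.analyticAt_cm 0 1 h).mul (D.analyticAt_cm 1 0 h))

theorem analyticAt_a0 {ε : E3} (h : ε ∈ ball (0 : E3) D.ρ₀) (hΔ : D.Δ ε ≠ 0) :
    AnalyticAt ℂ D.a0 ε :=
  ((((D.analyticAt_cm 1 1 h).div (D.analyticAt_Δ h) hΔ)).smul analyticAt_const).sub
    ((((D.analyticAt_cm 1 0 h).div (D.analyticAt_Δ h) hΔ)).smul analyticAt_const)

theorem analyticAt_a1 {ε : E3} (h : ε ∈ ball (0 : E3) D.ρ₀) (hΔ : D.Δ ε ≠ 0) :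
    AnalyticAt ℂ D.a1 ε :=
  ((((D.analyticAt_cm 0 0 h).div (D.analyticAt_Δ h) hΔ)).smul analyticAt_const).sub
    ((((D.analyticAt_cm 0 1 h).div (D.analyticAt_Δ h) hΔ)).smul analyticAt_const)

/-- the assembly of linear forms into a linear map -/
def asm (n : Type) [Fintype n] : (n → (E3 →L[ℂ] ℂ)) →L[ℂ] (E3 →L[ℂ] (n → ℂ)) :=
  LinearMap.toContinuousLinearMap
    { toFun := fun f => ContinuousLinearMap.pi f
      map_add' := fun f g => by ext <;> rfl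
      map_smul' := fun c f => by ext <;> rfl }

theorem analyticAt_af {ε : E3} (h : ε ∈ ball (0 : E3) D.ρ₀) (hΔ : D.Δ ε ≠ 0) :
    AnalyticAt ℂ D.af ε := by
  have h1 : AnalyticAt ℂ (fun ε => (![D.a0 ε, D.a1 ε] : Fin 2 → (E3 →L[ℂ] ℂ))) ε := by
    refine AnalyticAt.pi fun m => ?_
    fin_cases m
    · exact D.analyticAt_a0 h hΔ
    · exact D.analyticAt_a1 h hΔ
  exact ((asm (Fin 2)).analyticAt _).comp h1

theorem analyticAt_kapf {ε : E3} (h : ε ∈ ball (0 : E3) D.ρ₀) (hΔ : D.Δ ε ≠ 0) :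
    AnalyticAt ℂ D.kapf ε := by
  have h1 : AnalyticAt ℂ
      (fun ε => fun k : Fin 3 => D.kp 0 k ε • D.a0 ε + D.kp 1 k ε • D.a1 ε) ε := by
    refine AnalyticAt.pi fun k => ?_
    exact ((D.analyticAt_kp 0 k h).smul (D.analyticAt_a0 h hΔ)).add
      ((D.analyticAt_kp 1 k h).smul (D.analyticAt_a1 h hΔ))
  exact ((asm (Fin 3)).analyticAt _).comp h1

theorem contDiffAt_af {n : WithTop ℕ∞} {ε : E3} (h : ε ∈ ball (0 : E3) D.ρ₀) (hΔ : D.Δ ε ≠ 0) :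
    ContDiffAt ℝ n D.af ε := (D.analyticAt_af h hΔ).contDiffAt.restrict_scalars ℝ

theorem contDiffAt_kapf {n : WithTop ℕ∞} {ε : E3} (h : ε ∈ ball (0 : E3) D.ρ₀)
    (hΔ : D.Δ ε ≠ 0) : ContDiffAt ℝ n D.kapf ε :=
  (D.analyticAt_kapf h hΔ).contDiffAt.restrict_scalars ℝ

/-- the good open set -/
def Om : Set E3 := {ε | ε ∈ ball (0 : E3) D.ρ₀ ∧ D.Δ ε ≠ 0}

theorem isOpen_Om : IsOpen D.Om := by
  rw [isOpen_iff_mem_nhds]
  rintro ε ⟨h1, h2⟩
  filter_upwards [isOpen_ball.mem_nhds h1, (D.analyticAt_Δ h1).continuousAt.eventually_ne h2]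
    with q h3 h4
  exact ⟨h3, h4⟩

theorem zero_mem_Om : (0 : E3) ∈ D.Om := ⟨mem_ball_self D.ρ₀_pos, D.Δ_zero⟩

/-- the radius and the bound -/
theorem exists_bound : ∃ ρ κ : ℝ, 0 < ρ ∧ 1 ≤ κ ∧ closedBall (0 : E3) ρ ⊆ D.Om ∧
    ∀ ε ∈ closedBall (0 : E3) ρ, (‖D.kapf ε‖ ≤ κ ∧ ‖fderiv ℝ D.kapf ε‖ ≤ κ) ∧
      (‖D.af ε‖ ≤ κ ∧ ‖fderiv ℝ D.af ε‖ ≤ κ) := by
  obtain ⟨r, hr, hr2⟩ := Metric.isOpen_iff.1 D.isOpen_Om 0 D.zero_mem_Om
  have hsub : closedBall (0 : E3) (r / 2) ⊆ D.Om :=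
    (closedBall_subset_ball (by linarith)).trans hr2
  have hc := isCompact_closedBall (0 : E3) (r / 2)
  have k1 : ContDiffOn ℝ 1 D.kapf D.Om := fun ε h => (D.contDiffAt_kapf h.1 h.2).contDiffWithinAt
  have k2 : ContDiffOn ℝ 1 D.af D.Om := fun ε h => (D.contDiffAt_af h.1 h.2).contDiffWithinAt
  obtain ⟨C1, h1⟩ := hc.exists_bound_of_continuousOn (k1.continuousOn.mono hsub)
  obtain ⟨C2, h2⟩ := hc.exists_bound_of_continuousOn
    ((k1.continuousOn_fderiv_of_isOpen D.isOpen_Om le_rfl).mono hsub)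
  obtain ⟨C3, h3⟩ := hc.exists_bound_of_continuousOn (k2.continuousOn.mono hsub)
  obtain ⟨C4, h4⟩ := hc.exists_bound_of_continuousOn
    ((k2.continuousOn_fderiv_of_isOpen D.isOpen_Om le_rfl).mono hsub)
  refine ⟨r / 2, max 1 (max (max C1 C2) (max C3 C4)), by positivity, le_max_left _ _, hsub,
    fun ε hε => ⟨⟨?_, ?_⟩, ⟨?_, ?_⟩⟩⟩
  · exact (h1 ε hε).trans (((le_max_left _ _).trans (le_max_left _ _)).trans (le_max_right _ _))
  · exact (h2 ε hε).trans (((le_max_right _ _).trans (le_max_left _ _)).trans (le_max_right _ _))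
  · exact (h3 ε hε).trans (((le_max_left _ _).trans (le_max_right _ _)).trans (le_max_right _ _))
  · exact (h4 ε hε).trans (((le_max_right _ _).trans (le_max_right _ _)).trans (le_max_right _ _))

/-- the radius -/
def rad : ℝ := D.exists_bound.choose
/-- the bound -/
def bd : ℝ := D.exists_bound.choose_spec.choose

theorem rad_pos : 0 < D.rad := D.exists_bound.choose_spec.choose_spec.1
theorem one_le_bd : 1 ≤ D.bd := D.exists_bound.choose_spec.choose_spec.2.1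

theorem closedBall_rad : closedBall (0 : E3) D.rad ⊆ D.Om :=
  D.exists_bound.choose_spec.choose_spec.2.2.1

theorem mem_Om {ε : E3} (h : ‖ε‖ ≤ D.rad) : ε ∈ D.Om :=
  D.closedBall_rad (mem_closedBall_zero_iff.2 h)

theorem mem_ball_of {ε : E3} (h : ‖ε‖ ≤ D.rad) : ε ∈ ball (0 : E3) D.ρ₀ := (D.mem_Om h).1

theorem Δ_ne {ε : E3} (h : ‖ε‖ ≤ D.rad) : D.Δ ε ≠ 0 := (D.mem_Om h).2

theorem norm_kapf_le {ε : E3} (h : ‖ε‖ ≤ D.rad) : ‖D.kapf ε‖ ≤ D.bd :=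
  (D.exists_bound.choose_spec.choose_spec.2.2.2 ε (mem_closedBall_zero_iff.2 h)).1.1

theorem norm_fderiv_kapf_le {ε : E3} (h : ‖ε‖ ≤ D.rad) : ‖fderiv ℝ D.kapf ε‖ ≤ D.bd :=
  (D.exists_bound.choose_spec.choose_spec.2.2.2 ε (mem_closedBall_zero_iff.2 h)).1.2

theorem norm_af_le {ε : E3} (h : ‖ε‖ ≤ D.rad) : ‖D.af ε‖ ≤ D.bd :=
  (D.exists_bound.choose_spec.choose_spec.2.2.2 ε (mem_closedBall_zero_iff.2 h)).2.1

theorem norm_fderiv_af_le {ε : E3} (h : ‖ε‖ ≤ D.rad) : ‖fderiv ℝ D.af ε‖ ≤ D.bd :=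
  (D.exists_bound.choose_spec.choose_spec.2.2.2 ε (mem_closedBall_zero_iff.2 h)).2.2

/-- **the data of H722** -/
def kapData : KapData (Fin 3) where
  kap := D.kapf
  ρ := D.rad
  κ := D.bd
  ρ_pos := D.rad_pos
  κ_one := D.one_le_bd
  smooth := fun _ he => D.contDiffAt_kapf (D.mem_ball_of he.le) (D.Δ_ne he.le)
  bound := fun _ he => D.norm_kapf_le he.le
  dbound := fun _ he => D.norm_fderiv_kapf_le he.le

@[simp] theorem kapData_kap : D.kapData.kap = D.kapf := rfl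
@[simp] theorem kapData_ρ : D.kapData.ρ = D.rad := rfl
@[simp] theorem kapData_κ : D.kapData.κ = D.bd := rfl

/-- **(1)** in the region of `kapData` -/
theorem af_cm {ε : E3} (h : ‖ε‖ < D.kapData.ρ) {c : E3} (hc : ∑ k, c k = 0) (k : Fin 3) :
    ∑ m, D.af ε c m * D.cm m k ε = c k :=
  D.af_spec (D.mem_ball_of h.le) (D.Δ_ne h.le) hc k

/-- **(2)** in the region of `kapData` -/
theorem af_eq {ε : E3} (h : ‖ε‖ < D.kapData.ρ) {c : E3} {a : E2}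
    (hc : ∀ k, c k = ∑ m, a m * D.cm m k ε) : D.af ε c = a :=
  D.af_unique (D.Δ_ne h.le) hc

/-- **(3)** in terms of the coefficients `a` -/
theorem kap_eq {ε : E3} (h : ‖ε‖ < D.kapData.ρ) {c : E3} {a : E2}
    (hc : ∀ k, c k = ∑ m, a m * D.cm m k ε) (k : Fin 3) :
    D.kapData.kap ε c k = ∑ m, a m * D.kp m k ε := by
  rw [kapData_kap, kapf_apply, D.af_eq h hc]

end CmIn

end Vale.Agent.P273.H630
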