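import Vale.Agent.P273.H630.Kap
import Vale.Agent.P273.H517.Far

/-!
# P273, LIM-B (K): the instance of `CmIn` for the theta curve (H517's residues and matching constants)
-/

noncomputable section

namespace Vale.Agent.P273.H630

open Finset Complex Metric Set
open Vale.Agent.P273.H722
open Vale.Agent.P273.H517 (Sep Sm SmS cm kp MM sum_cm differentiableOn_cm differentiableOn_kp
  cm_zero)

theorem Sep.inj {e : Fin 3 → ℂ} (he : Sep e) : Function.Injective e := by
  intro k l h
  by_contra hne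
  have := he k l hne
  rw [h, sub_self, norm_zero] at this
  norm_num at this

theorem sm_of_ball {ε : E3} (h : ε ∈ ball (0 : E3) ((1 / 128) ^ 2)) : Sm ε := by
  intro k
  rw [mem_ball_zero_iff] at h
  exact (norm_le_pi_norm ε k).trans_lt h

/-- **the input of (K) for the theta curve** with centres `e` and logarithms `ell` -/
def cmIn {e : Fin 3 → ℂ} (he : Sep e) (ell : Fin 3 → Fin 3 → ℂ) : CmIn where
  e := e
  cm := fun m k ε => cm e ε (m : ℕ) k
  kp := fun m k ε => kp e ε ell (m : ℕ) k
  ρ₀ := (1 / 128) ^ 2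
  inj := Sep.inj he
  ρ₀_pos := by norm_num
  cm_hol := fun m k => (differentiableOn_cm he m k).mono fun _ h => sm_of_ball h
  kp_hol := fun m k => (differentiableOn_kp he ell m k).mono fun _ h => sm_of_ball h
  sum_cm := fun _ h m => sum_cm he (sm_of_ball h) (by omega)
  cm_zero := fun m k => by
    rw [cm_zero he, div_eq_mul_inv, Finset.prod_inv_distrib]

section

variable {e : Fin 3 → ℂ} (he : Sep e) (ell : Fin 3 → Fin 3 → ℂ)

@[simp] theorem cmIn_cm (m : Fin 2) (k : Fin 3) (ε : E3) :
    (cmIn he ell).cm m k ε = cm e ε (m : ℕ) k := rfl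

@[simp] theorem cmIn_kp (m : Fin 2) (k : Fin 3) (ε : E3) :
    (cmIn he ell).kp m k ε = kp e ε ell (m : ℕ) k := rfl

theorem sm_of_rad {ε : E3} (h : ‖ε‖ ≤ (cmIn he ell).rad) : Sm ε :=
  sm_of_ball ((cmIn he ell).mem_ball_of h)

/-- the neck coefficients of `(a 0 + a 1 x) dx / y` for `a = af ε c` are the `c k` -/
theorem af_cm_theta {ε : E3} (h : ‖ε‖ < (cmIn he ell).kapData.ρ) {c : E3}
    (hc : ∑ k, c k = 0) (k : Fin 3) :
    (cmIn he ell).af ε c 0 * cm e ε 0 k + (cmIn he ell).af ε c 1 * cm e ε 1 k = c k := by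
  have := (cmIn he ell).af_cm h hc k
  rwa [Fin.sum_univ_two] at this

theorem kap_theta (ε c : E3) (k : Fin 3) :
    (cmIn he ell).kapData.kap ε c k =
      (cmIn he ell).af ε c 0 * kp e ε ell 0 k + (cmIn he ell).af ε c 1 * kp e ε ell 1 k := by
  have := (cmIn he ell).kapf_apply ε c k
  rwa [Fin.sum_univ_two] at this

end

end Vale.Agent.P273.H630
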