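import Vale.Agent.P273.H630.D0
import Vale.Agent.P273.H722.Theta4
import Vale.Agent.P273.H803.AsyL

/-!
# P273, ASY0 (T3e): the coefficient side of `Vert`

`cc ξ y α` = the residues of the class `ξ` at the theta configuration `rootsL y α`, and the bounds of
`(a 0 + a 1 x) / v`, `a = af0 (eps0 y α) (cc ξ y α)`.
-/

noncomputable section

namespace Vale.Agent.P273.H630

open Finset Complex Metric Set
open Vale.Agent.P273.H722 (KapData Pa ep ib IsSol)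
open Vale.Agent.P273.H722.KapData (MM)
open Vale.Agent.P273.H95 (ctr IsCl)
open Vale.Agent.P273.H562 (rootsL bt xe)
open Vale.Agent.P273.H803 (BaseOk)

/-- **the residues of the class `ξ`** -/
def cc (ξ : Fin 6 → ℝ) (y α : Fin 3 → ℝ) : E3 := fun k =>
  (D0.xx (xe ξ) (bt ξ) (ysh y, α) k : ℂ) + ib (bt ξ) k

theorem norm_bt_le (ξ : Fin 6 → ℝ) : ‖bt ξ‖ ≤ 2 * ‖ξ‖ := by
  refine (pi_norm_le_iff_of_nonneg (by positivity)).2 fun k => ?_
  have h : ∀ i j : Fin 6, |ξ i - ξ j| ≤ 2 * ‖ξ‖ := fun i j => by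
    have h1 : |ξ i| ≤ ‖ξ‖ := norm_le_pi_norm ξ i
    have h2 : |ξ j| ≤ ‖ξ‖ := norm_le_pi_norm ξ j
    have := abs_sub (ξ i) (ξ j)
    linarith
  fin_cases k
  · exact h 1 0
  · exact h 3 2
  · exact h 5 4

theorem norm_xe_le (ξ : Fin 6 → ℝ) : ‖xe ξ‖ ≤ ‖ξ‖ := by
  refine (pi_norm_le_iff_of_nonneg (norm_nonneg _)).2 fun k => ?_
  fin_cases k
  · exact norm_le_pi_norm ξ 1
  · exact norm_le_pi_norm ξ 3
  · exact norm_le_pi_norm ξ 5

theorem sum_bt {ξ : Fin 6 → ℝ} (h : IsCl ξ) : ∑ k, bt ξ k = 0 := by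
  unfold IsCl at h
  rw [Fin.sum_univ_six] at h
  rw [Fin.sum_univ_three]
  have h0 : bt ξ 0 = ξ 1 - ξ 0 := rfl
  have h1 : bt ξ 1 = ξ 3 - ξ 2 := rfl
  have h2 : bt ξ 2 = ξ 5 - ξ 4 := rfl
  rw [h0, h1, h2]
  have e0 : ((0 : Fin 6) : ℕ) = 0 := rfl
  have e1 : ((1 : Fin 6) : ℕ) = 1 := rfl
  have e2 : ((2 : Fin 6) : ℕ) = 2 := rfl
  have e3 : ((3 : Fin 6) : ℕ) = 3 := rfl
  have e4 : ((4 : Fin 6) : ℕ) = 4 := rfl
  have e5 : ((5 : Fin 6) : ℕ) = 5 := rfl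
  norm_num [e0, e1, e2, e3, e4, e5] at h
  linarith

theorem norm_ib_apply (β : Fin 3 → ℝ) (k : Fin 3) : ‖ib β k‖ ≤ |β k| := by
  unfold ib
  rw [norm_div, norm_mul, Complex.norm_I, one_mul, Complex.norm_real, Complex.norm_real,
    Real.norm_eq_abs Real.pi, abs_of_pos Real.pi_pos, Real.norm_eq_abs]
  refine div_le_self (abs_nonneg _) ?_
  linarith [Real.pi_gt_three]

/-- **bounds of the residues** -/
theorem exists_cc : ∃ K N₀ : ℝ, 1 ≤ K ∧ 1 ≤ N₀ ∧ ∀ y α, BaseOk N₀ y α →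
    (‖eps0 y α‖ < I0.rad ∧ ‖eps0 y α‖ < D0.ρ ∧ (∀ k, ‖eps0 y α k‖ ≤ 1 / y k) ∧
      ∃ m, D0.Big m (ysh y, α)) ∧
    ∀ ξ, IsCl ξ → ∑ k, cc ξ y α k = 0 ∧ ‖cc ξ y α‖ ≤ K * ‖ξ‖ ∧
      (∀ k, ‖cc ξ y α k‖ ≤ K * (|bt ξ k| + ‖ξ‖ / y k)) ∧
      ((∀ k, bt ξ k = 0) → ‖cc ξ y α‖ ≤ K * H562.ww ξ y) := by
  obtain ⟨N₀, hN1, hN⟩ := exists_N0
  set A : ℝ := max (D0.A0 7) 0 with hA
  have hA0 : 0 ≤ A := le_max_right _ _
  refine ⟨8 + 3 * A, N₀, by linarith, hN1, fun y α hy => ?_⟩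
  obtain ⟨h1, h2, h3⟩ := hN y α hy.1
  have hypos : ∀ k, 0 < y k := fun k => by linarith [hy.1 k]
  have hlog : 0 ≤ Real.log 16 := Real.log_nonneg (by norm_num)
  refine ⟨⟨h2, h1, fun k => norm_eps0_apply_le (hypos k), _, h3⟩, fun ξ hξ => ?_⟩
  have hα : ∀ k, |((ysh y, α) : Pa (Fin 3)).2 k| ≤ 7 := fun k => by
    have := hy.2 k
    rw [abs_le]
    constructor <;> [exact this.1; linarith [this.2]]
  have hs : H722.KapData.sz (xe ξ) (bt ξ) ≤ 3 * ‖ξ‖ := by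
    have := norm_xe_le ξ
    have := norm_bt_le ξ
    unfold H722.KapData.sz
    linarith
  have hs0 : 0 ≤ H722.KapData.sz (xe ξ) (bt ξ) := H722.KapData.sz_nonneg _ _
  obtain ⟨-, -, hx, -, -⟩ := H722.KapData.bounds_v h3 hα (xe ξ) (bt ξ)
  have hx' : ∀ k, |D0.xx (xe ξ) (bt ξ) (ysh y, α) k| ≤ 3 * A * ‖ξ‖ / y k := fun k => by
    refine (hx k).trans ?_
    have hle : y k ≤ ysh y k := by unfold ysh; linarith
    have h4 : D0.A0 7 * H722.KapData.sz (xe ξ) (bt ξ) ≤ 3 * A * ‖ξ‖ := by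
      calc D0.A0 7 * H722.KapData.sz (xe ξ) (bt ξ) ≤ A * H722.KapData.sz (xe ξ) (bt ξ) :=
            mul_le_mul_of_nonneg_right (le_max_left _ _) hs0
        _ ≤ A * (3 * ‖ξ‖) := mul_le_mul_of_nonneg_left hs hA0
        _ = 3 * A * ‖ξ‖ := by ring
    have h5 : 0 ≤ 3 * A * ‖ξ‖ := by positivity
    show D0.A0 7 * H722.KapData.sz (xe ξ) (bt ξ) / ysh y k ≤ _
    exact div_le_div₀ h5 h4 (hypos k) hle
  have hck : ∀ k, ‖cc ξ y α k‖ ≤ |bt ξ k| + 3 * A * ‖ξ‖ / y k := fun k => by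
    unfold cc
    refine (norm_add_le _ _).trans ?_
    rw [Complex.norm_real, Real.norm_eq_abs]
    have := norm_ib_apply (bt ξ) k
    have := hx' k
    linarith
  refine ⟨?_, ?_, fun k => ?_, fun hb => ?_⟩
  · have hsum := (H722.KapData.isSol h3 (xe ξ) (bt ξ)).2
    have hb := sum_bt hξ
    unfold cc
    rw [Finset.sum_add_distrib, ← Complex.ofReal_sum, hsum]
    have h6 : ∑ k, ib (bt ξ) k = I * ((∑ k, bt ξ k : ℝ) : ℂ) / (Real.pi : ℂ) := by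
      unfold ib
      rw [← Finset.sum_div, ← Finset.mul_sum, Complex.ofReal_sum]
    rw [h6, hb]
    simp
  · refine (pi_norm_le_iff_of_nonneg (by positivity)).2 fun k => ?_
    refine (hck k).trans ?_
    have h6 : |bt ξ k| ≤ 2 * ‖ξ‖ := (norm_le_pi_norm (bt ξ) k).trans (norm_bt_le ξ)
    have h7 : 3 * A * ‖ξ‖ / y k ≤ 3 * A * ‖ξ‖ := by
      refine div_le_self (by positivity) ?_
      linarith [hy.1 k]
    have := norm_nonneg ξ
    linarith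
  · refine (hck k).trans ?_
    have h6 : 0 ≤ ‖ξ‖ / y k := div_nonneg (norm_nonneg _) (hypos k).le
    have h7 : 3 * A * ‖ξ‖ / y k = 3 * A * (‖ξ‖ / y k) := by ring
    rw [h7]
    have := abs_nonneg (bt ξ k)
    nlinarith
  · -- classes that are constant on the pairs
    have hb0 : bt ξ = 0 := funext hb
    have hsol := H722.KapData.isSol h3 (xe ξ) (bt ξ)
    have hbd := (hsol.bound h3.hM h3.hm h3.hm0 h3.hK h3.hmκ).1
    have hgg : D0.gg (xe ξ) (bt ξ) (ysh y, α) = xe ξ := by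
      rw [hb0]
      funext k
      unfold KapData.gg
      rw [H722.RG_apply]
      have : ib (0 : Fin 3 → ℝ) = 0 := by funext l; simp [ib]
      rw [this, map_zero]
      simp
    rw [hgg] at hbd
    have hww : H722.ww (MM (ysh y, α)) (xe ξ) ≤ 2 * H562.ww ξ y := by
      unfold H722.ww H562.ww
      rw [Finset.mul_sum]
      refine Finset.sum_le_sum fun k _ => ?_
      have hle : y k / 2 ≤ MM (ysh y, α) k := by
        show y k / 2 ≤ ysh y k / 2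
        unfold ysh
        linarith
      calc |xe ξ k| / MM (ysh y, α) k ≤ |xe ξ k| / (y k / 2) :=
            div_le_div_of_nonneg_left (abs_nonneg _) (by linarith [hypos k]) hle
        _ = 2 * (|xe ξ k| / y k) := by field_simp
    have hww0 : 0 ≤ H562.ww ξ y :=
      Finset.sum_nonneg fun k _ => div_nonneg (abs_nonneg _) (hypos k).le
    refine (pi_norm_le_iff_of_nonneg (by positivity)).2 fun k => ?_
    have h6 : cc ξ y α k = (D0.xx (xe ξ) (bt ξ) (ysh y, α) k : ℂ) := by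
      unfold cc
      rw [hb0]
      simp [ib]
    rw [h6, Complex.norm_real]
    have h7 := norm_le_pi_norm (D0.xx (xe ξ) (bt ξ) (ysh y, α)) k
    nlinarith

/-! ### The roots -/

/-- half distance of the pair `k` -/
def dL (y α : Fin 3 → ℝ) (k : Fin 3) : ℂ :=
  (1 / 16 : ℂ) * Complex.exp ((-(y k : ℂ) + (α k : ℂ) * I) / 2)

theorem dL_sq (y α : Fin 3 → ℝ) (k : Fin 3) : dL y α k ^ 2 = eps0 y α k := by
  unfold dL eps0
  rw [mul_pow, ← Complex.exp_nat_mul]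
  congr 2
  push_cast
  ring

theorem rootsL_eq (y α : Fin 3 → ℝ) : rootsL y α =
    ![ctr 0 - dL y α 0, ctr 0 + dL y α 0, ctr 1 - dL y α 1, ctr 1 + dL y α 1,
      ctr 2 - dL y α 2, ctr 2 + dL y α 2] := by
  have h0 : ctr 0 = 3 / 2 := by unfold H95.ctr; norm_num
  have h1 : ctr 1 = 7 / 2 := by unfold H95.ctr; norm_num
  have h2 : ctr 2 = 11 / 2 := by
    unfold H95.ctr
    norm_num [show ((2 : Fin 3) : ℕ) = 2 from rfl]
  unfold H562.rootsL H828.th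
  rw [h0, h1, h2]
  rfl

/-- **the sextic** -/
theorem prod_rootsL (y α : Fin 3 → ℝ) (x : ℂ) :
    ∏ j, (x - rootsL y α j) = sex ctr (eps0 y α) x := by
  rw [rootsL_eq, Fin.prod_univ_six, sex, Fin.prod_univ_three, ← dL_sq, ← dL_sq, ← dL_sq]
  simp only [Matrix.cons_val_zero, Matrix.cons_val_one, Matrix.cons_val]
  ring

/-- the two roots of the pair `k` -/
theorem exists_pair (y α : Fin 3 → ℝ) (k : Fin 3) : ∃ i j : Fin 6,
    rootsL y α i = ctr k - dL y α k ∧ rootsL y α j = ctr k + dL y α k := by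
  rw [rootsL_eq]
  fin_cases k
  · exact ⟨0, 1, rfl, rfl⟩
  · exact ⟨2, 3, rfl, rfl⟩
  · exact ⟨4, 5, rfl, rfl⟩

/-- the scale is at most the square root of the modulus of the pair factor -/
theorem Hs_le_sqrt {y α : Fin 3 → ℝ} {x : ℂ} (h : H578.Off (rootsL y α) x) (k : Fin 3) :
    H578.Hs (rootsL y α) x ≤ Real.sqrt ‖(x - ctr k) ^ 2 - eps0 y α k‖ := by
  obtain ⟨i, j, hi, hj⟩ := exists_pair y α k
  have h1 := H578.Hs_le h i
  have h2 := H578.Hs_le h j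
  have h0 := H578.Hs_nonneg (rootsL y α) x
  have e1 : (x - ctr k) ^ 2 - eps0 y α k = (x - rootsL y α i) * (x - rootsL y α j) := by
    rw [hi, hj, ← dL_sq]
    ring
  refine Real.le_sqrt_of_sq_le ?_
  rw [e1, norm_mul, pow_two]
  exact mul_le_mul h1 h2 h0 (norm_nonneg _)

theorem norm_ctr_le (k : Fin 3) : ‖ctr k‖ ≤ 11 / 2 := by
  have h : ctr k = ((2 * (k : ℝ) + 3 / 2 : ℝ) : ℂ) := by
    unfold H95.ctr
    push_cast
    ring
  rw [h, Complex.norm_real, Real.norm_eq_abs, abs_of_nonneg (by positivity)]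
  have : (k : ℕ) ≤ 2 := by omega
  have : ((k : ℕ) : ℝ) ≤ 2 := by exact_mod_cast this
  linarith

theorem norm_dL_le {y α : Fin 3 → ℝ} {k : Fin 3} (h : 0 ≤ y k) : ‖dL y α k‖ ≤ 1 / 16 := by
  unfold dL
  rw [norm_mul, Complex.norm_exp]
  have h1 : ((-(y k : ℂ) + (α k : ℂ) * I) / 2).re = -(y k) / 2 := by simp
  rw [h1]
  have h2 : Real.exp (-(y k) / 2) ≤ 1 := by
    rw [Real.exp_le_one_iff]
    linarith
  have h3 : ‖(1 / 16 : ℂ)‖ = 1 / 16 := by simp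
  rw [h3]
  nlinarith

/-- the scale far away -/
theorem Hs_le_far {y α : Fin 3 → ℝ} {x : ℂ} (h : H578.Off (rootsL y α) x) (hy : 0 ≤ y 0) :
    H578.Hs (rootsL y α) x ≤ 7 * (1 + ‖x‖) := by
  obtain ⟨i, j, hi, hj⟩ := exists_pair y α 0
  refine (H578.Hs_le h i).trans ?_
  rw [hi]
  have h1 := norm_ctr_le 0
  have h2 := norm_dL_le (α := α) hy
  have h3 : ‖x - (ctr 0 - dL y α 0)‖ ≤ ‖x‖ + (‖ctr 0‖ + ‖dL y α 0‖) :=
    (norm_sub_le _ _).trans (add_le_add le_rfl (norm_sub_le _ _))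
  have := norm_nonneg x
  linarith

/-- **THE COEFFICIENT SIDE OF `Vert`** -/
theorem vertIn : ∃ K N₀ : ℝ, 1 ≤ K ∧ 1 ≤ N₀ ∧ ∀ y α, BaseOk N₀ y α → ∀ ξ, IsCl ξ →
    ∀ x v : ℂ, v ^ 2 = ∏ j, (x - rootsL y α j) → v ≠ 0 →
    ‖(af0 (eps0 y α) (cc ξ y α) 0 + af0 (eps0 y α) (cc ξ y α) 1 * x) / v‖ *
        H578.Hs (rootsL y α) x ≤ K * ‖ξ‖ ∧
    (∀ k, ‖x - ctr k‖ ≤ 3 / 2 →
      ‖(af0 (eps0 y α) (cc ξ y α) 0 + af0 (eps0 y α) (cc ξ y α) 1 * x) / v‖ *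
        H578.Hs (rootsL y α) x ≤ K * (|bt ξ k| + ‖ξ‖ * (1 / y k + ‖x - ctr k‖))) ∧
    ((∀ k, bt ξ k = 0) →
      ‖(af0 (eps0 y α) (cc ξ y α) 0 + af0 (eps0 y α) (cc ξ y α) 1 * x) / v‖ *
        H578.Hs (rootsL y α) x ≤ K * H562.ww ξ y) := by
  obtain ⟨C, N₀, hC1, hN1, hC⟩ := exists_cc
  obtain ⟨A, hA0, hA⟩ := exists_vert_bound sep_ctr ell0
  refine ⟨(1 + 7 * A) * (C + 1) + A * (2 * C), N₀, by nlinarith, hN1, fun y α hy ξ hξ x v hv hv0 => ?_⟩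
  obtain ⟨⟨e1, -, e3, -⟩, hcc⟩ := hC y α hy
  obtain ⟨c1, c2, c3, c4⟩ := hcc ξ hξ
  have hypos : ∀ k, 0 < y k := fun k => by linarith [hy.1 k]
  have hoff : H578.Off (rootsL y α) x := by
    intro j hj
    have h1 : ∏ j, (x - rootsL y α j) = 0 :=
      Finset.prod_eq_zero (Finset.mem_univ j) (sub_eq_zero.2 hj)
    rw [h1] at hv
    exact hv0 (pow_eq_zero_iff (two_ne_zero) |>.1 hv)
  rw [prod_rootsL] at hv
  obtain ⟨b1, b2⟩ := hA (eps0 y α) (cc ξ y α) x v e1 hv hv0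
  set F : ℝ := ‖(af0 (eps0 y α) (cc ξ y α) 0 + af0 (eps0 y α) (cc ξ y α) 1 * x) / v‖ with hF
  have hF0 : 0 ≤ F := norm_nonneg _
  have hH0 := H578.Hs_nonneg (rootsL y α) x
  -- the general bound
  have key : F * H578.Hs (rootsL y α) x ≤ 7 * A * ‖cc ξ y α‖ := by
    have hc0 : 0 ≤ ‖cc ξ y α‖ := norm_nonneg _
    by_cases hx : ∃ k, ‖x - ctr k‖ ≤ 3 / 2
    · obtain ⟨k, hk⟩ := hx
      have h1 := (b1 k hk).1
      have h2 : F * H578.Hs (rootsL y α) x ≤ F * Real.sqrt ‖(x - ctr k) ^ 2 - eps0 y α k‖ :=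
        mul_le_mul_of_nonneg_left (Hs_le_sqrt hoff k) hF0
      have h3 : F * Real.sqrt ‖(x - ctr k) ^ 2 - eps0 y α k‖ ≤ A * ‖cc ξ y α‖ := h1
      have h4 : 0 ≤ A * ‖cc ξ y α‖ := by positivity
      linarith
    · push Not at hx
      have h1 : F ≤ A * ‖cc ξ y α‖ / (1 + ‖x‖) ^ 2 := b2 fun l => by
        have := hx l
        linarith
      have h2 := Hs_le_far hoff (hypos 0).le
      have hx1 : 1 ≤ 1 + ‖x‖ := by linarith [norm_nonneg x]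
      calc F * H578.Hs (rootsL y α) x ≤ A * ‖cc ξ y α‖ / (1 + ‖x‖) ^ 2 * (7 * (1 + ‖x‖)) :=
            mul_le_mul h1 h2 hH0 (by positivity)
        _ = 7 * A * ‖cc ξ y α‖ / (1 + ‖x‖) := by field_simp
        _ ≤ 7 * A * ‖cc ξ y α‖ := div_le_self (by positivity) hx1
  have hnξ := norm_nonneg ξ
  have hA7 : 0 ≤ 7 * A := by linarith
  refine ⟨?_, fun k hk => ?_, fun hb => ?_⟩
  · refine key.trans ?_
    have h1 : 7 * A * ‖cc ξ y α‖ ≤ 7 * A * (C * ‖ξ‖) := mul_le_mul_of_nonneg_left c2 hA7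
    have h2 : 0 ≤ ‖ξ‖ * (1 + C + 7 * A + A * (2 * C)) := by positivity
    nlinarith
  · have h1 := (b1 k hk).2 c1
    have h2 : F * H578.Hs (rootsL y α) x ≤ F * Real.sqrt ‖(x - ctr k) ^ 2 - eps0 y α k‖ :=
      mul_le_mul_of_nonneg_left (Hs_le_sqrt hoff k) hF0
    have h3 : F * Real.sqrt ‖(x - ctr k) ^ 2 - eps0 y α k‖ ≤
        ‖cc ξ y α k‖ + A * (‖x - ctr k‖ + ‖eps0 y α k‖) * ‖cc ξ y α‖ := h1
    have h4 : A * (‖x - ctr k‖ + ‖eps0 y α k‖) * ‖cc ξ y α‖ ≤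
        A * (‖x - ctr k‖ + 1 / y k) * (C * ‖ξ‖) := by
      have := e3 k
      have : 0 ≤ ‖x - ctr k‖ := norm_nonneg _
      have : 0 ≤ 1 / y k := one_div_nonneg.2 (hypos k).le
      gcongr
    have h5 := c3 k
    set u : ℝ := 1 / y k with hu
    have hu0 : 0 ≤ u := one_div_nonneg.2 (hypos k).le
    have h6 : ‖ξ‖ / y k = ‖ξ‖ * u := by rw [hu]; ring
    rw [h6] at h5
    set z : ℝ := ‖x - ctr k‖ with hz
    have hz0 : 0 ≤ z := norm_nonneg _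
    have hb0 : 0 ≤ |bt ξ k| := abs_nonneg _
    have hzu : 0 ≤ ‖ξ‖ * u := by positivity
    have hzz : 0 ≤ ‖ξ‖ * z := by positivity
    calc F * H578.Hs (rootsL y α) x ≤ C * (|bt ξ k| + ‖ξ‖ * u) + A * (z + u) * (C * ‖ξ‖) := by
          linarith
      _ = C * |bt ξ k| + (C + A * C) * (‖ξ‖ * u) + A * C * (‖ξ‖ * z) := by ring
      _ ≤ ((1 + 7 * A) * (C + 1) + A * (2 * C)) * |bt ξ k| +
          ((1 + 7 * A) * (C + 1) + A * (2 * C)) * (‖ξ‖ * u) +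
          ((1 + 7 * A) * (C + 1) + A * (2 * C)) * (‖ξ‖ * z) := by
          have hAC : 0 ≤ A * C := by positivity
          gcongr <;> nlinarith
      _ = ((1 + 7 * A) * (C + 1) + A * (2 * C)) * (|bt ξ k| + ‖ξ‖ * (u + z)) := by ring
  · have hw := c4 hb
    refine key.trans ?_
    have hww0 : 0 ≤ H562.ww ξ y :=
      Finset.sum_nonneg fun k _ => div_nonneg (abs_nonneg _) (hypos k).le
    have h1 : 7 * A * ‖cc ξ y α‖ ≤ 7 * A * (C * H562.ww ξ y) := mul_le_mul_of_nonneg_left hw hA7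
    have h2 : 0 ≤ H562.ww ξ y * (1 + C + 7 * A + A * (2 * C)) := by positivity
    nlinarith

end Vale.Agent.P273.H630
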